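import Vale.Agent.Results.P371.A_scalar_window
import Vale.Agent.Results.P371.B_matrix_bound

open MeasureTheory Matrix
open scoped Real ComplexConjugate ComplexOrder

namespace Vale.Agent.Results.P371.A00_master

open Vale.Agent.Lib.P371 Vale.Agent.Lib.P371W
open Vale.Agent.Results.P371.A_scalar_window

/-- One-dimensional Lieb-Thirring bounds at `γ = 1`. (1) Scalar potentials: for every finite orthonormal
family in `H¹(ℝ; ℂ)` the kinetic energy bounds `K₀ ∫ ρ³`, with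
`K₀ = π (∫_{-π/4}^{π/4} cos(2t)^{4/3} dt)³ ≥ 2.37`, and for every measurable `W ≥ 0` with
`∫ W^{3/2} < ∞` the energy of the family and the sum of the moduli of negative eigenvalues of
`-d²/dx² - W` obey the bound with ratio `1.178` to the semiclassical constant `2 / (3 π)`. (2) Matrix
potentials: for every matrix size `m` and every measurable positive semidefinite `W` with
`∫ tr W^{3/2} < ∞`, every finite orthonormal family in `H¹(ℝ; ℂ^m)` and the eigenvalues below zero obey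
the same bound with ratio `1.44656`. -/
theorem result :
    (∀ {N : ℕ} (ψ ψ' : Fin N → ℝ → ℂ) (_ : ∀ j, IsH1 (ψ j) (ψ' j))
      (_ : ∀ j l, ∫ x, conj (ψ j x) * ψ l x = if j = l then 1 else 0),
      (237 / 100 : ℝ) ≤ π * (∫ t in (-(π / 4))..(π / 4), Real.cos (2 * t) ^ (4 / 3 : ℝ)) ^ 3 ∧
      (Integrable (fun x => (∑ j, ‖ψ j x‖ ^ 2) ^ 3) ∧
        π * (∫ t in (-(π / 4))..(π / 4), Real.cos (2 * t) ^ (4 / 3 : ℝ)) ^ 3 *
            (∫ x, (∑ j, ‖ψ j x‖ ^ 2) ^ 3) ≤ ∑ j, ∫ x, ‖ψ' j x‖ ^ 2) ∧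
      ∀ W : ℝ → ℝ, (∀ x, 0 ≤ W x) → Measurable W → Integrable (fun x => W x ^ (3 / 2 : ℝ)) →
        ((∀ j, Integrable fun x => W x * ‖ψ j x‖ ^ 2) ∧
          (∑ j, ∫ x, W x * ‖ψ j x‖ ^ 2) - ∑ j, ∫ x, ‖ψ' j x‖ ^ 2 ≤
            (589 / 500) * (2 / (3 * π)) * ∫ x, W x ^ (3 / 2 : ℝ)) ∧
        ∀ lam : Fin N → ℝ, (∀ j, lam j < 0) → (∀ j, IsScalarEigenpair W (lam j) (ψ j) (ψ' j)) →
          ∑ j, |lam j| ≤ (589 / 500) * (2 / (3 * π)) * ∫ x, W x ^ (3 / 2 : ℝ)) ∧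
    (∀ {m : ℕ} (W : ℝ → Matrix (Fin m) (Fin m) ℂ) (hW : ∀ x, (W x).PosSemidef)
      (_ : ∀ a b, Measurable fun x => W x a b)
      (_ : Integrable fun x => ∑ k, ((hW x).isHermitian.eigenvalues k) ^ (3 / 2 : ℝ))
      {N : ℕ} (ψ ψ' : Fin N → ℝ → Fin m → ℂ) (_ : ∀ j, IsH1Vec (ψ j) (ψ' j))
      (_ : ∀ j l, ipL2 (ψ j) (ψ l) = if j = l then 1 else 0),
      ((∀ j, Integrable fun x => (star (ψ j x) ⬝ᵥ (W x *ᵥ ψ j x)).re) ∧
        (∑ j, ∫ x, (star (ψ j x) ⬝ᵥ (W x *ᵥ ψ j x)).re) - ∑ j, ∑ b, ∫ x, ‖ψ' j x b‖ ^ 2 ≤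
          ((144656 / 100000) * (2 / (3 * π))) *
            ∫ x, ∑ k, ((hW x).isHermitian.eigenvalues k) ^ (3 / 2 : ℝ)) ∧
      (∀ lam : Fin N → ℝ, (∀ j, lam j < 0) → (∀ j, IsFormEigenpair W (lam j) (ψ j) (ψ' j)) →
        ∑ j, |lam j| ≤ ((144656 / 100000) * (2 / (3 * π))) *
            ∫ x, ∑ k, ((hW x).isHermitian.eigenvalues k) ^ (3 / 2 : ℝ))) :=
  ⟨fun ψ ψ' hψ horth => Vale.Agent.Results.P371.A_scalar_window.result ψ ψ' hψ horth,
    fun W hW hWm hWp => fun ψ ψ' hψ horth =>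
      Vale.Agent.Results.P371.B_matrix_bound.result W hW hWm hWp ψ ψ' hψ horth⟩

end Vale.Agent.Results.P371.A00_master
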