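import Vale.Agent.Lib.P371.DataB

/-!
The eigenvalue-sum bound for matrix potentials in one dimension, with the ratio `1.448`
to the semiclassical constant `2 / (3 π)`, uniformly in the matrix size.
-/

open MeasureTheory Matrix
open scoped ComplexConjugate Real ComplexOrder

namespace Vale.Agent.Results.P371.A_matrix_bound

open Vale.Agent.Lib.P371

/-- The quadratic form of a Hermitian matrix is real. -/
theorem quad_real {m : ℕ} {A : Matrix (Fin m) (Fin m) ℂ} (hA : A.IsHermitian) (v : Fin m → ℂ) :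
    star v ⬝ᵥ (A *ᵥ v) = (((star v ⬝ᵥ (A *ᵥ v)).re : ℝ) : ℂ) := by
  rw [quad_eq hA v, Complex.ofReal_re]

/-- For every matrix size `m` and every measurable positive semidefinite `W` with
`∫ tr W^{3/2} < ∞`: every finite orthonormal family in `H¹(ℝ; ℂ^m)` obeys the ratio `1.448` bound
(with `2 / (3 π)` the semiclassical constant at `γ = 1`), and eigenvalues below zero obey it too. -/
theorem result {m : ℕ} (W : ℝ → Matrix (Fin m) (Fin m) ℂ) (hW : ∀ x, (W x).PosSemidef)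
    (hWm : ∀ a b, Measurable fun x => W x a b)
    (hWp : Integrable fun x => ∑ k, ((hW x).isHermitian.eigenvalues k) ^ (3 / 2 : ℝ))
    {N : ℕ} (ψ ψ' : Fin N → ℝ → Fin m → ℂ) (hψ : ∀ j, IsH1Vec (ψ j) (ψ' j))
    (horth : ∀ j l, ipL2 (ψ j) (ψ l) = if j = l then 1 else 0) :
    ((∀ j, Integrable fun x => (star (ψ j x) ⬝ᵥ (W x *ᵥ ψ j x)).re) ∧
      (∑ j, ∫ x, (star (ψ j x) ⬝ᵥ (W x *ᵥ ψ j x)).re) - ∑ j, ∑ b, ∫ x, ‖ψ' j x b‖ ^ 2 ≤
        ((181 / 125) * (2 / (3 * π))) *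
          ∫ x, ∑ k, ((hW x).isHermitian.eigenvalues k) ^ (3 / 2 : ℝ)) ∧
    (∀ lam : Fin N → ℝ, (∀ j, lam j < 0) → (∀ j, IsFormEigenpair W (lam j) (ψ j) (ψ' j)) →
      ∑ j, |lam j| ≤ ((181 / 125) * (2 / (3 * π))) *
          ∫ x, ∑ k, ((hW x).isHermitian.eigenvalues k) ^ (3 / 2 : ℝ)) := by
  have hmain := cert_bound (r := 181 / 125) DataB.tableCert.cert W hW hWm hWp (ψ := ψ) (ψ' := ψ')
    (fun j a => hψ j a) (fun j l => horth j l)
  have hcast : (((181 / 125 : ℚ)) : ℝ) = 181 / 125 := by norm_num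
  rw [hcast] at hmain
  refine ⟨hmain, fun lam hlam heig => ?_⟩
  refine le_trans (le_of_eq ?_) hmain.2
  rw [← Finset.sum_sub_distrib]
  refine Finset.sum_congr rfl fun j _ => ?_
  have h1 := (heig j).2 (ψ j) (ψ' j) (hψ j)
  have h2 := horth j j
  rw [if_pos rfl] at h2
  rw [h2, mul_one] at h1
  have h3 : ipL2 (ψ' j) (ψ' j) = ((∑ b, ∫ x, ‖ψ' j x b‖ ^ 2 : ℝ) : ℂ) := by
    unfold ipL2
    push_cast
    refine Finset.sum_congr rfl fun b _ => ?_
    rw [← integral_complex_ofReal]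
    refine integral_congr_ae (Filter.Eventually.of_forall fun x => ?_)
    simp [Complex.conj_mul']
  have h4 : ∫ x, star (ψ j x) ⬝ᵥ (W x *ᵥ ψ j x) =
      ((∫ x, (star (ψ j x) ⬝ᵥ (W x *ᵥ ψ j x)).re : ℝ) : ℂ) := by
    rw [← integral_complex_ofReal]
    refine integral_congr_ae (Filter.Eventually.of_forall fun x => ?_)
    exact quad_real (hW x).isHermitian (ψ j x)
  rw [h3, h4] at h1
  have h5 : (∑ b, ∫ x, ‖ψ' j x b‖ ^ 2) - ∫ x, (star (ψ j x) ⬝ᵥ (W x *ᵥ ψ j x)).re = lam j := by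
    exact_mod_cast h1
  rw [abs_of_neg (hlam j)]
  linarith

end Vale.Agent.Results.P371.A_matrix_bound
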