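import Vale.Agent.Lib.P371W.Lieb

/-!
The kinetic energy inequality for orthonormal families in `H¹(ℝ; ℂ)` with the constant
`π (∫_{-π/4}^{π/4} cos(2t)^{4/3} dt)³ > 2.37`, and the resulting bound `1.178 · 2 / (3 π)` for the sum
of the eigenvalues of a scalar one-dimensional Schrodinger operator.
-/

open MeasureTheory
open scoped Real ComplexConjugate

namespace Vale.Agent.Results.P371.A_scalar_window

open Vale.Agent.Lib.P371 Vale.Agent.Lib.P371W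

/-- `u` (with weak derivative `u'`) is an eigenfunction with eigenvalue `lam` of the operator of the
form `∫ |u'|² - ∫ W |u|²`, with form domain `H¹(ℝ; ℂ)`. -/
def IsScalarEigenpair (W : ℝ → ℝ) (lam : ℝ) (u u' : ℝ → ℂ) : Prop :=
  IsH1 u u' ∧ ∀ φ φ' : ℝ → ℂ, IsH1 φ φ' →
    (∫ x, conj (φ' x) * u' x) - (∫ x, conj (φ x) * ((W x : ℂ) * u x)) =
      (lam : ℂ) * ∫ x, conj (φ x) * u x

/-- For every finite orthonormal family in `H¹(ℝ; ℂ)`: the kinetic energy bounds `K₀ ∫ ρ³`, with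
`K₀ = π (∫_{-π/4}^{π/4} cos(2t)^{4/3} dt)³ ≥ 2.37`. For every measurable `W ≥ 0` with
`∫ W^{3/2} < ∞`: the energy of the family and the sum of the moduli of negative eigenvalues of
`-d²/dx² - W` obey the bound with ratio `1.178` to the semiclassical constant `2 / (3 π)`. -/
theorem result {N : ℕ} (ψ ψ' : Fin N → ℝ → ℂ) (hψ : ∀ j, IsH1 (ψ j) (ψ' j))
    (horth : ∀ j l, ∫ x, conj (ψ j x) * ψ l x = if j = l then 1 else 0) :
    (237 / 100 : ℝ) ≤ π * (∫ t in (-(π / 4))..(π / 4), Real.cos (2 * t) ^ (4 / 3 : ℝ)) ^ 3 ∧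
    (Integrable (fun x => (∑ j, ‖ψ j x‖ ^ 2) ^ 3) ∧
      π * (∫ t in (-(π / 4))..(π / 4), Real.cos (2 * t) ^ (4 / 3 : ℝ)) ^ 3 *
          (∫ x, (∑ j, ‖ψ j x‖ ^ 2) ^ 3) ≤ ∑ j, ∫ x, ‖ψ' j x‖ ^ 2) ∧
    ∀ W : ℝ → ℝ, (∀ x, 0 ≤ W x) → Measurable W → Integrable (fun x => W x ^ (3 / 2 : ℝ)) →
      ((∀ j, Integrable fun x => W x * ‖ψ j x‖ ^ 2) ∧
        (∑ j, ∫ x, W x * ‖ψ j x‖ ^ 2) - ∑ j, ∫ x, ‖ψ' j x‖ ^ 2 ≤
          (589 / 500) * (2 / (3 * π)) * ∫ x, W x ^ (3 / 2 : ℝ)) ∧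
      ∀ lam : Fin N → ℝ, (∀ j, lam j < 0) → (∀ j, IsScalarEigenpair W (lam j) (ψ j) (ψ' j)) →
        ∑ j, |lam j| ≤ (589 / 500) * (2 / (3 * π)) * ∫ x, W x ^ (3 / 2 : ℝ) := by
  refine ⟨K0_lower, kinetic_bound hψ horth, ?_⟩
  intro W hW hWm hWp
  obtain ⟨hint, hsum⟩ := sum_bound hψ horth hW hWm hWp
  have hWnn : 0 ≤ ∫ x, W x ^ (3 / 2 : ℝ) :=
    integral_nonneg fun x => Real.rpow_nonneg (hW x) _
  have hmain : (∑ j, ∫ x, W x * ‖ψ j x‖ ^ 2) - ∑ j, ∫ x, ‖ψ' j x‖ ^ 2 ≤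
      (589 / 500) * (2 / (3 * π)) * ∫ x, W x ^ (3 / 2 : ℝ) :=
    hsum.trans (mul_le_mul_of_nonneg_right const_compare hWnn)
  refine ⟨⟨hint, hmain⟩, fun lam hlam heig => ?_⟩
  refine le_trans (le_of_eq ?_) hmain
  rw [← Finset.sum_sub_distrib]
  refine Finset.sum_congr rfl fun j _ => ?_
  have h1 := (heig j).2 (ψ j) (ψ' j) (hψ j)
  have h2 := horth j j
  rw [if_pos rfl] at h2
  rw [h2, mul_one] at h1
  have h3 : ∫ x, conj (ψ' j x) * ψ' j x = ((∫ x, ‖ψ' j x‖ ^ 2 : ℝ) : ℂ) := by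
    rw [← integral_complex_ofReal]
    refine integral_congr_ae (Filter.Eventually.of_forall fun x => ?_)
    simp [Complex.conj_mul']
  have h4 : ∫ x, conj (ψ j x) * ((W x : ℂ) * ψ j x) = ((∫ x, W x * ‖ψ j x‖ ^ 2 : ℝ) : ℂ) := by
    rw [← integral_complex_ofReal]
    refine integral_congr_ae (Filter.Eventually.of_forall fun x => ?_)
    simp only
    push_cast
    rw [← Complex.conj_mul']
    ring
  rw [h3, h4] at h1
  have h5 : (∫ x, ‖ψ' j x‖ ^ 2) - ∫ x, W x * ‖ψ j x‖ ^ 2 = lam j := by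
    exact_mod_cast h1
  rw [abs_of_neg (hlam j)]
  linarith

end Vale.Agent.Results.P371.A_scalar_window
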